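import Vale.Agent.P333.H476.K4.Str

set_option autoImplicit false

/-!
P333: checks of steps of the greedy algorithm.
-/

namespace Vale.Agent.P333.H476.K4

open Vale.Agent.P333.H476.Nm

theorem ok3 : stepOk s12 s13 546
    [m2, m1, s0, s1, s2, s3, s4, s5, s6, s7, s8, s9, s10, s11, s16, s17, s18, s19, s20, s21] = true := by
  decide +kernel

theorem e3 : mrg s12 s13 546 = m3 := by
  decide +kernel

theorem ok6 : stepOk m4 m2 528
    [m5, m3, m1, s0, s1, s2, s3, s4, s5, s6, s7, s10, s11, s16, s17, s18, s19] = true := by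
  decide +kernel

theorem e6 : mrg m4 m2 528 = m6 := by
  decide +kernel

theorem ok8 : stepOk s18 s19 516
    [m7, m6, m5, m3, m1, s0, s1, s2, s3, s4, s5, s6, s7, s16, s17] = true := by
  decide +kernel

theorem e8 : mrg s18 s19 516 = m8 := by
  decide +kernel

theorem ok11 : stepOk s6 s7 510
    [m10, m9, m7, m5, m3, m1, s0, s1, s2, s3, s16, s17] = true := by
  decide +kernel

theorem e11 : mrg s6 s7 510 = m11 := by
  decide +kernel

theorem ok15 : stepOk s2 s3 490
    [m14, m13, m11, m9, m7, m5, m3, m1] = true := by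
  decide +kernel

theorem e15 : mrg s2 s3 490 = m15 := by
  decide +kernel

theorem ok17 : stepOk m11 m9 120
    [m16, m15, m14, m13, m3, m1] = true := by
  decide +kernel

theorem e17 : mrg m11 m9 120 = m17 := by
  decide +kernel

end Vale.Agent.P333.H476.K4
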