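import Vale.Agent.P333.H476.K4.Str

set_option autoImplicit false

/-!
P333: checks of steps of the greedy algorithm.
-/

namespace Vale.Agent.P333.H476.K4

open Vale.Agent.P333.H476.Nm

theorem ok2 : stepOk s22 m0 548
    [m1, s0, s1, s2, s3, s4, s5, s6, s7, s8, s9, s10, s11, s12, s13, s16, s17, s18, s19, s20, s21] = true := by
  decide +kernel

theorem e2 : mrg s22 m0 548 = m2 := by
  decide +kernel

theorem ok4 : stepOk s20 s21 532
    [m3, m2, m1, s0, s1, s2, s3, s4, s5, s6, s7, s8, s9, s10, s11, s16, s17, s18, s19] = true := by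
  decide +kernel

theorem e4 : mrg s20 s21 532 = m4 := by
  decide +kernel

theorem ok9 : stepOk s4 s5 514
    [m8, m7, m6, m5, m3, m1, s0, s1, s2, s3, s6, s7, s16, s17] = true := by
  decide +kernel

theorem e9 : mrg s4 s5 514 = m9 := by
  decide +kernel

theorem ok12 : stepOk s16 s17 496
    [m11, m10, m9, m7, m5, m3, m1, s0, s1, s2, s3] = true := by
  decide +kernel

theorem e12 : mrg s16 s17 496 = m12 := by
  decide +kernel

theorem ok14 : stepOk m12 m10 492
    [m13, m11, m9, m7, m5, m3, m1, s2, s3] = true := by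
  decide +kernel

theorem e14 : mrg m12 m10 492 = m14 := by
  decide +kernel

theorem ok18 : stepOk m15 m13 118
    [m17, m16, m14, m3, m1] = true := by
  decide +kernel

theorem e18 : mrg m15 m13 118 = m18 := by
  decide +kernel

end Vale.Agent.P333.H476.K4
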