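import Vale.Agent.P333.H476.K4.St0
import Vale.Agent.P333.H476.K4.St1
import Vale.Agent.P333.H476.K4.St2
import Vale.Agent.P333.H476.K4.Fr

set_option autoImplicit false

/-!
P333: a family for which every greedy superstring is more than twice as long as a shortest one.
-/

namespace Vale.Agent.P333.H476.K4

open Vale.Agent.P333.H476.Nm

theorem all18 : All
    [m17, m16, m15, m14, m13, m3, m1]
    7815 := by
  have h : All
      (m15 :: m13 :: [m17, m16, m14, m3, m1])
      7815 := by
    refine all_step ok18 ?_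
    rw [e18]
    exact all19
  refine h.perm ?_
  exact (List.perm_middle (l₁ := [m17, m16])
      (a := m15)
      (l₂ := [m14, m13, m3, m1])).trans
      ((List.perm_middle (l₁ := [m17, m16, m14])
      (a := m13)
      (l₂ := [m3, m1])).cons m15)

theorem all17 : All
    [m16, m15, m14, m13, m11, m9, m3, m1]
    7815 := by
  have h : All
      (m11 :: m9 :: [m16, m15, m14, m13, m3, m1])
      7815 := by
    refine all_step ok17 ?_
    rw [e17]
    exact all18
  refine h.perm ?_
  exact (List.perm_middle (l₁ := [m16, m15, m14, m13])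
      (a := m11)
      (l₂ := [m9, m3, m1])).trans
      ((List.perm_middle (l₁ := [m16, m15, m14, m13])
      (a := m9)
      (l₂ := [m3, m1])).cons m11)

theorem all16 : All
    [m15, m14, m13, m11, m9, m7, m5, m3, m1]
    7815 := by
  have h : All
      (m7 :: m5 :: [m15, m14, m13, m11, m9, m3, m1])
      7815 := by
    refine all_step ok16 ?_
    rw [e16]
    exact all17
  refine h.perm ?_
  exact (List.perm_middle (l₁ := [m15, m14, m13, m11, m9])
      (a := m7)
      (l₂ := [m5, m3, m1])).trans
      ((List.perm_middle (l₁ := [m15, m14, m13, m11, m9])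
      (a := m5)
      (l₂ := [m3, m1])).cons m7)

theorem all15 : All
    [m14, m13, m11, m9, m7, m5, m3, m1, s2, s3]
    7815 := by
  have h : All
      (s2 :: s3 :: [m14, m13, m11, m9, m7, m5, m3, m1])
      7815 := by
    refine all_step ok15 ?_
    rw [e15]
    exact all16
  refine h.perm ?_
  exact (List.perm_middle (l₁ := [m14, m13, m11, m9, m7, m5, m3, m1])
      (a := s2)
      (l₂ := [s3])).trans
      ((List.perm_middle (l₁ := [m14, m13, m11, m9, m7, m5, m3, m1])
      (a := s3)
      (l₂ := [])).cons s2)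

theorem all14 : All
    [m13, m12, m11, m10, m9, m7, m5, m3, m1, s2, s3]
    7815 := by
  have h : All
      (m12 :: m10 :: [m13, m11, m9, m7, m5, m3, m1, s2, s3])
      7815 := by
    refine all_step ok14 ?_
    rw [e14]
    exact all15
  refine h.perm ?_
  exact (List.perm_middle (l₁ := [m13])
      (a := m12)
      (l₂ := [m11, m10, m9, m7, m5, m3, m1, s2, s3])).trans
      ((List.perm_middle (l₁ := [m13, m11])
      (a := m10)
      (l₂ := [m9, m7, m5, m3, m1, s2, s3])).cons m12)

theorem all13 : All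
    [m12, m11, m10, m9, m7, m5, m3, m1, s0, s1, s2, s3]
    7815 := by
  have h : All
      (s0 :: s1 :: [m12, m11, m10, m9, m7, m5, m3, m1, s2, s3])
      7815 := by
    refine all_step ok13 ?_
    rw [e13]
    exact all14
  refine h.perm ?_
  exact (List.perm_middle (l₁ := [m12, m11, m10, m9, m7, m5, m3, m1])
      (a := s0)
      (l₂ := [s1, s2, s3])).trans
      ((List.perm_middle (l₁ := [m12, m11, m10, m9, m7, m5, m3, m1])
      (a := s1)
      (l₂ := [s2, s3])).cons s0)

theorem all12 : All
    [m11, m10, m9, m7, m5, m3, m1, s0, s1, s2, s3, s16, s17]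
    7815 := by
  have h : All
      (s16 :: s17 :: [m11, m10, m9, m7, m5, m3, m1, s0, s1, s2, s3])
      7815 := by
    refine all_step ok12 ?_
    rw [e12]
    exact all13
  refine h.perm ?_
  exact (List.perm_middle (l₁ := [m11, m10, m9, m7, m5, m3, m1, s0, s1, s2, s3])
      (a := s16)
      (l₂ := [s17])).trans
      ((List.perm_middle (l₁ := [m11, m10, m9, m7, m5, m3, m1, s0, s1, s2, s3])
      (a := s17)
      (l₂ := [])).cons s16)

theorem all11 : All
    [m10, m9, m7, m5, m3, m1, s0, s1, s2, s3, s6, s7, s16, s17]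
    7815 := by
  have h : All
      (s6 :: s7 :: [m10, m9, m7, m5, m3, m1, s0, s1, s2, s3, s16, s17])
      7815 := by
    refine all_step ok11 ?_
    rw [e11]
    exact all12
  refine h.perm ?_
  exact (List.perm_middle (l₁ := [m10, m9, m7, m5, m3, m1, s0, s1, s2, s3])
      (a := s6)
      (l₂ := [s7, s16, s17])).trans
      ((List.perm_middle (l₁ := [m10, m9, m7, m5, m3, m1, s0, s1, s2, s3])
      (a := s7)
      (l₂ := [s16, s17])).cons s6)

theorem all10 : All
    [m9, m8, m7, m6, m5, m3, m1, s0, s1, s2, s3, s6, s7, s16, s17]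
    7815 := by
  have h : All
      (m8 :: m6 :: [m9, m7, m5, m3, m1, s0, s1, s2, s3, s6, s7, s16, s17])
      7815 := by
    refine all_step ok10 ?_
    rw [e10]
    exact all11
  refine h.perm ?_
  exact (List.perm_middle (l₁ := [m9])
      (a := m8)
      (l₂ := [m7, m6, m5, m3, m1, s0, s1, s2, s3, s6, s7, s16, s17])).trans
      ((List.perm_middle (l₁ := [m9, m7])
      (a := m6)
      (l₂ := [m5, m3, m1, s0, s1, s2, s3, s6, s7, s16, s17])).cons m8)

theorem all9 : All
    [m8, m7, m6, m5, m3, m1, s0, s1, s2, s3, s4, s5, s6, s7, s16, s17]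
    7815 := by
  have h : All
      (s4 :: s5 :: [m8, m7, m6, m5, m3, m1, s0, s1, s2, s3, s6, s7, s16, s17])
      7815 := by
    refine all_step ok9 ?_
    rw [e9]
    exact all10
  refine h.perm ?_
  exact (List.perm_middle (l₁ := [m8, m7, m6, m5, m3, m1, s0, s1, s2, s3])
      (a := s4)
      (l₂ := [s5, s6, s7, s16, s17])).trans
      ((List.perm_middle (l₁ := [m8, m7, m6, m5, m3, m1, s0, s1, s2, s3])
      (a := s5)
      (l₂ := [s6, s7, s16, s17])).cons s4)

theorem all8 : All
    [m7, m6, m5, m3, m1, s0, s1, s2, s3, s4, s5, s6, s7, s16, s17, s18, s19]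
    7815 := by
  have h : All
      (s18 :: s19 :: [m7, m6, m5, m3, m1, s0, s1, s2, s3, s4, s5, s6, s7, s16, s17])
      7815 := by
    refine all_step ok8 ?_
    rw [e8]
    exact all9
  refine h.perm ?_
  exact (List.perm_middle (l₁ := [m7, m6, m5, m3, m1, s0, s1, s2, s3, s4, s5, s6, s7, s16, s17])
      (a := s18)
      (l₂ := [s19])).trans
      ((List.perm_middle (l₁ := [m7, m6, m5, m3, m1, s0, s1, s2, s3, s4, s5, s6, s7, s16, s17])
      (a := s19)
      (l₂ := [])).cons s18)

theorem all7 : All
    [m6, m5, m3, m1, s0, s1, s2, s3, s4, s5, s6, s7, s10, s11, s16, s17, s18, s19]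
    7815 := by
  have h : All
      (s10 :: s11 :: [m6, m5, m3, m1, s0, s1, s2, s3, s4, s5, s6, s7, s16, s17, s18, s19])
      7815 := by
    refine all_step ok7 ?_
    rw [e7]
    exact all8
  refine h.perm ?_
  exact (List.perm_middle (l₁ := [m6, m5, m3, m1, s0, s1, s2, s3, s4, s5, s6, s7])
      (a := s10)
      (l₂ := [s11, s16, s17, s18, s19])).trans
      ((List.perm_middle (l₁ := [m6, m5, m3, m1, s0, s1, s2, s3, s4, s5, s6, s7])
      (a := s11)
      (l₂ := [s16, s17, s18, s19])).cons s10)

theorem all6 : All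
    [m5, m4, m3, m2, m1, s0, s1, s2, s3, s4, s5, s6, s7, s10, s11, s16, s17, s18, s19]
    7815 := by
  have h : All
      (m4 :: m2 :: [m5, m3, m1, s0, s1, s2, s3, s4, s5, s6, s7, s10, s11, s16, s17, s18, s19])
      7815 := by
    refine all_step ok6 ?_
    rw [e6]
    exact all7
  refine h.perm ?_
  exact (List.perm_middle (l₁ := [m5])
      (a := m4)
      (l₂ := [m3, m2, m1, s0, s1, s2, s3, s4, s5, s6, s7, s10, s11, s16, s17, s18, s19])).trans
      ((List.perm_middle (l₁ := [m5, m3])
      (a := m2)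
      (l₂ := [m1, s0, s1, s2, s3, s4, s5, s6, s7, s10, s11, s16, s17, s18, s19])).cons m4)

theorem all5 : All
    [m4, m3, m2, m1, s0, s1, s2, s3, s4, s5, s6, s7, s8, s9, s10, s11, s16, s17, s18, s19]
    7815 := by
  have h : All
      (s8 :: s9 :: [m4, m3, m2, m1, s0, s1, s2, s3, s4, s5, s6, s7, s10, s11, s16, s17, s18, s19])
      7815 := by
    refine all_step ok5 ?_
    rw [e5]
    exact all6
  refine h.perm ?_
  exact (List.perm_middle (l₁ := [m4, m3, m2, m1, s0, s1, s2, s3, s4, s5, s6, s7])
      (a := s8)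
      (l₂ := [s9, s10, s11, s16, s17, s18, s19])).trans
      ((List.perm_middle (l₁ := [m4, m3, m2, m1, s0, s1, s2, s3, s4, s5, s6, s7])
      (a := s9)
      (l₂ := [s10, s11, s16, s17, s18, s19])).cons s8)

theorem all4 : All
    [m3, m2, m1, s0, s1, s2, s3, s4, s5, s6, s7, s8, s9, s10, s11, s16, s17, s18, s19, s20, s21]
    7815 := by
  have h : All
      (s20 :: s21 :: [m3, m2, m1, s0, s1, s2, s3, s4, s5, s6, s7, s8, s9, s10, s11, s16, s17, s18, s19])
      7815 := by
    refine all_step ok4 ?_
    rw [e4]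
    exact all5
  refine h.perm ?_
  exact (List.perm_middle (l₁ := [m3, m2, m1, s0, s1, s2, s3, s4, s5, s6, s7, s8, s9, s10, s11, s16, s17, s18, s19])
      (a := s20)
      (l₂ := [s21])).trans
      ((List.perm_middle (l₁ := [m3, m2, m1, s0, s1, s2, s3, s4, s5, s6, s7, s8, s9, s10, s11, s16, s17, s18, s19])
      (a := s21)
      (l₂ := [])).cons s20)

theorem all3 : All
    [m2, m1, s0, s1, s2, s3, s4, s5, s6, s7, s8, s9, s10, s11, s12, s13, s16, s17, s18, s19, s20, s21]
    7815 := by
  have h : All
      (s12 :: s13 :: [m2, m1, s0, s1, s2, s3, s4, s5, s6, s7, s8, s9, s10, s11, s16, s17, s18, s19, s20, s21])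
      7815 := by
    refine all_step ok3 ?_
    rw [e3]
    exact all4
  refine h.perm ?_
  exact (List.perm_middle (l₁ := [m2, m1, s0, s1, s2, s3, s4, s5, s6, s7, s8, s9, s10, s11])
      (a := s12)
      (l₂ := [s13, s16, s17, s18, s19, s20, s21])).trans
      ((List.perm_middle (l₁ := [m2, m1, s0, s1, s2, s3, s4, s5, s6, s7, s8, s9, s10, s11])
      (a := s13)
      (l₂ := [s16, s17, s18, s19, s20, s21])).cons s12)

theorem all2 : All
    [m1, m0, s0, s1, s2, s3, s4, s5, s6, s7, s8, s9, s10, s11, s12, s13, s16, s17, s18, s19, s20, s21, s22]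
    7815 := by
  have h : All
      (s22 :: m0 :: [m1, s0, s1, s2, s3, s4, s5, s6, s7, s8, s9, s10, s11, s12, s13, s16, s17, s18, s19, s20, s21])
      7815 := by
    refine all_step ok2 ?_
    rw [e2]
    exact all3
  refine h.perm ?_
  exact (List.perm_middle (l₁ := [m1, m0, s0, s1, s2, s3, s4, s5, s6, s7, s8, s9, s10, s11, s12, s13, s16, s17, s18, s19, s20, s21])
      (a := s22)
      (l₂ := [])).trans
      ((List.perm_middle (l₁ := [m1])
      (a := m0)
      (l₂ := [s0, s1, s2, s3, s4, s5, s6, s7, s8, s9, s10, s11, s12, s13, s16, s17, s18, s19, s20, s21])).cons s22)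

theorem all1 : All
    [m0, s0, s1, s2, s3, s4, s5, s6, s7, s8, s9, s10, s11, s12, s13, s14, s15, s16, s17, s18, s19, s20, s21, s22]
    7815 := by
  have h : All
      (s14 :: s15 :: [m0, s0, s1, s2, s3, s4, s5, s6, s7, s8, s9, s10, s11, s12, s13, s16, s17, s18, s19, s20, s21, s22])
      7815 := by
    refine all_step ok1 ?_
    rw [e1]
    exact all2
  refine h.perm ?_
  exact (List.perm_middle (l₁ := [m0, s0, s1, s2, s3, s4, s5, s6, s7, s8, s9, s10, s11, s12, s13])
      (a := s14)
      (l₂ := [s15, s16, s17, s18, s19, s20, s21, s22])).trans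
      ((List.perm_middle (l₁ := [m0, s0, s1, s2, s3, s4, s5, s6, s7, s8, s9, s10, s11, s12, s13])
      (a := s15)
      (l₂ := [s16, s17, s18, s19, s20, s21, s22])).cons s14)

theorem all0 : All
    [s0, s1, s2, s3, s4, s5, s6, s7, s8, s9, s10, s11, s12, s13, s14, s15, s16, s17, s18, s19, s20, s21, s22, s23, s24]
    7815 := by
  have h : All
      (s23 :: s24 :: [s0, s1, s2, s3, s4, s5, s6, s7, s8, s9, s10, s11, s12, s13, s14, s15, s16, s17, s18, s19, s20, s21, s22])
      7815 := by
    refine all_step ok0 ?_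
    rw [e0]
    exact all1
  refine h.perm ?_
  exact (List.perm_middle (l₁ := [s0, s1, s2, s3, s4, s5, s6, s7, s8, s9, s10, s11, s12, s13, s14, s15, s16, s17, s18, s19, s20, s21, s22])
      (a := s23)
      (l₂ := [s24])).trans
      ((List.perm_middle (l₁ := [s0, s1, s2, s3, s4, s5, s6, s7, s8, s9, s10, s11, s12, s13, s14, s15, s16, s17, s18, s19, s20, s21, s22])
      (a := s24)
      (l₂ := [])).cons s23)

theorem outs : (∃ t, Greedy.Output (fam.map str) t) ∧
    ∀ t, Greedy.Output (fam.map str) t → t.length = 7815 :=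
  outputs (by decide) reduced all0

/-- **Every output of the greedy algorithm is much longer than twice a shortest superstring.** -/
theorem main : ∃ S : List (List ℕ), Greedy.Reduced S S ∧ (∃ t, Greedy.Output S t) ∧
    ∀ t, Greedy.Output S t → 2 * opt S < t.length ∧ 2088 * opt S < 1000 * t.length := by
  refine ⟨fam.map str, reduced, outs.1, fun t ht => ?_⟩
  have h1 := opt_le
  have h2 := outs.2 t ht
  constructor <;> omega

end Vale.Agent.P333.H476.K4
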