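import Vale.Agent.P333.H476.K4.Str

set_option autoImplicit false

/-!
P333: checks of steps of the greedy algorithm.
-/

namespace Vale.Agent.P333.H476.K4

open Vale.Agent.P333.H476.Nm

theorem ok0 : stepOk s23 s24 836
    [s0, s1, s2, s3, s4, s5, s6, s7, s8, s9, s10, s11, s12, s13, s14, s15, s16, s17, s18, s19, s20, s21, s22] = true := by
  decide +kernel

theorem e0 : mrg s23 s24 836 = m0 := by
  decide +kernel

theorem ok1 : stepOk s14 s15 834
    [m0, s0, s1, s2, s3, s4, s5, s6, s7, s8, s9, s10, s11, s12, s13, s16, s17, s18, s19, s20, s21, s22] = true := by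
  decide +kernel

theorem e1 : mrg s14 s15 834 = m1 := by
  decide +kernel

theorem ok5 : stepOk s8 s9 530
    [m4, m3, m2, m1, s0, s1, s2, s3, s4, s5, s6, s7, s10, s11, s16, s17, s18, s19] = true := by
  decide +kernel

theorem e5 : mrg s8 s9 530 = m5 := by
  decide +kernel

theorem ok7 : stepOk s10 s11 526
    [m6, m5, m3, m1, s0, s1, s2, s3, s4, s5, s6, s7, s16, s17, s18, s19] = true := by
  decide +kernel

theorem e7 : mrg s10 s11 526 = m7 := by
  decide +kernel

theorem ok10 : stepOk m8 m6 512
    [m9, m7, m5, m3, m1, s0, s1, s2, s3, s6, s7, s16, s17] = true := by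
  decide +kernel

theorem e10 : mrg m8 m6 512 = m10 := by
  decide +kernel

theorem ok13 : stepOk s0 s1 494
    [m12, m11, m10, m9, m7, m5, m3, m1, s2, s3] = true := by
  decide +kernel

theorem e13 : mrg s0 s1 494 = m13 := by
  decide +kernel

theorem ok16 : stepOk m7 m5 125
    [m15, m14, m13, m11, m9, m3, m1] = true := by
  decide +kernel

theorem e16 : mrg m7 m5 125 = m16 := by
  decide +kernel

end Vale.Agent.P333.H476.K4
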